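import Vale.Agent.CT2.XPad
import Vale.Agent.CT2.XStart26

/-! # P328: an explicit polynomial-time almost-uniform sampler for all contingency tables -/

namespace Vale.Agent.Results.P328.BinarySampler

open CTSampler

/-- For every number of rows `m` and of columns `n` and all margins `r`, `c` with total `N`:
the north-west corner table `start r c` is a table with these margins; the 3×3 rejection chain has
transition probabilities `trans` on the tables; for `m, n ≥ 3`, started from any table, it is within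
`ε` of the uniform law after a number of steps which is an explicit polynomial in `m`, `n`, `log N`
and `log (1/ε)`; for all `m, n ≥ 1` the same holds for the chain run on the tables with two zero rows
and two zero columns added. -/
theorem result (m n : ℕ) (hm : 1 ≤ m) (hn : 1 ≤ n) (r : Fin m → ℕ) (c : Fin n → ℕ) (N : ℕ)
    (hr : ∑ i, r i = N) (hc : ∑ j, c j = N) :
    IsTable r c (start r c) ∧
    (∀ T : Fin m → Fin n → ℕ, IsTable r c T →
      (∀ S, 0 ≤ trans T S) ∧ ∑ S ∈ tables r c, trans T S = 1) ∧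
    (3 ≤ m → 3 ≤ n → ∀ T₀ : Fin m → Fin n → ℕ, IsTable r c T₀ → ∀ ε : ℝ, 0 < ε → ε < 1 →
      ∀ t : ℕ, 10 ^ 37 * ((m : ℝ) + 1) ^ 6 * ((n : ℝ) + 1) ^ 17 *
        (1 + Real.log ((N : ℝ) + 1)) ^ 4 *
        (1 + Real.log ((N : ℝ) + 1) + Real.log (1 / ε)) ≤ t →
      tvUnif r c (law r c T₀ t) ≤ ε) ∧
    (∀ T₀ : Fin m → Fin n → ℕ, IsTable r c T₀ → ∀ ε : ℝ, 0 < ε → ε < 1 →
      ∀ t : ℕ, 10 ^ 44 * ((m : ℝ) + 1) ^ 6 * ((n : ℝ) + 1) ^ 17 *
        (1 + Real.log ((N : ℝ) + 1)) ^ 4 *
        (1 + Real.log ((N : ℝ) + 1) + Real.log (1 / ε)) ≤ t →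
      tvUnif r c (fun T => law (pad r) (pad c) (padT T₀) t (padT T)) ≤ ε) :=
  ⟨start_isTable r c (hr.trans hc.symm),
    fun _ hT => ⟨fun S => trans_nonneg _ S, trans_sum hm hn r c (xf_mem_tables.2 hT)⟩,
    fun hm3 hn3 T₀ hT ε h0 h1 t ht => sampler_mix hm3 hn3 r c N hr hc T₀ hT ε h0 h1 t ht,
    fun T₀ hT ε h0 h1 t ht => sampler_mix_pad hm hn r c N hr hc T₀ hT ε h0 h1 t ht⟩

end Vale.Agent.Results.P328.BinarySampler
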