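import Vale.Agent.CT2.Heat2
import Vale.Agent.CT2.HeatMix2
import Vale.Agent.CT2.StartDef26
import Vale.Agent.CT2.XStart26
import Vale.Agent.CT.BG3F24

/-! # P328: polynomial mixing (in the binary input length) of the 2×2 heat-bath chain -/

namespace Vale.Agent.Results.P328.HeatBath22

open CTHeat2

/-- For every number of rows `m` and of columns `n` and all margins `r`, `c` with total `N`:
the north-west corner table `start r c` is a contingency table with these margins; `trans` is a
transition matrix on these tables; and the 2×2 heat-bath chain, started from any table, is within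
`ε` of the uniform law in total variation after a number of steps which is an explicit polynomial in
`m`, `n`, `log N` and `log (1/ε)`. -/
theorem result (m n : ℕ) (hm : 1 ≤ m) (hn : 1 ≤ n) (r : Fin m → ℕ) (c : Fin n → ℕ) (N : ℕ)
    (hr : ∑ i, r i = N) (hc : ∑ j, c j = N) :
    IsTable r c (CTSampler.start r c) ∧
    (∀ T : Fin m → Fin n → ℕ, IsTable r c T →
      (∀ S, 0 ≤ trans T S) ∧ ∑ S ∈ tables r c, trans T S = 1) ∧
    ∀ T₀ : Fin m → Fin n → ℕ, IsTable r c T₀ → ∀ ε : ℝ, 0 < ε → ∀ t : ℕ,
      10 ^ 50 * (m : ℝ) ^ 2 * (n : ℝ) ^ 2 * ((m : ℝ) + 1) ^ 4 * ((n : ℝ) + 1) ^ 15 *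
        (1 + Real.log ((N : ℝ) + 1)) ^ 4 *
        ((m : ℝ) * n * Real.log ((N : ℝ) + 1) + Real.log (1 / ε)) ≤ t →
      tvUnif r c (law r c T₀ t) ≤ ε := by
  refine ⟨CTSampler.start_isTable r c (hr.trans hc.symm), fun T hT =>
    ⟨fun S => trans_nonneg T S, trans_sum hm hn (mem_tables.2 hT)⟩, fun T₀ hT ε h0 t ht => ?_⟩
  have hszc : CT.sz c = N := hc
  have hp := CT.p2_all24 r c (by rw [hr, hszc])
  exact mixing_of hm hn r c N hc hp T₀ hT ε h0 t ht

end Vale.Agent.Results.P328.HeatBath22
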