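import Vale.Agent.CT2.Heat3
import Vale.Agent.CT2.HeatMix3

/-! # P328: polynomial mixing (in the binary input length) of the 3×3 heat-bath chain -/

namespace Vale.Agent.Results.P328.HeatBathMixes

open CTHeat

/-- For every number of rows `m` and of columns `n` and all margins `r`, `c` with total `N`, the
3×3 heat-bath chain on the contingency tables with margins `r`, `c`, started from any table, is
within `ε` of the uniform law in total variation after a number of steps which is an explicit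
polynomial in `m`, `n`, `log N` and `log (1/ε)`. -/
theorem result (m n : ℕ) (hm : 1 ≤ m) (hn : 1 ≤ n) (r : Fin m → ℕ) (c : Fin n → ℕ) (N : ℕ)
    (hr : ∑ i, r i = N) (hc : ∑ j, c j = N) (T₀ : Fin m → Fin n → ℕ) (hT : IsTable r c T₀)
    (ε : ℝ) (h0 : 0 < ε) (t : ℕ)
    (ht : 10 ^ 25 * (m : ℝ) ^ 3 * (n : ℝ) ^ 3 * ((m : ℝ) + 1) ^ 2 * ((n : ℝ) + 1) ^ 13 *
      (1 + Real.log ((N : ℝ) + 1)) ^ 4 *
      ((m : ℝ) * n * Real.log ((N : ℝ) + 1) + Real.log (1 / ε)) ≤ t) :
    tvUnif r c (law r c T₀ t) ≤ ε :=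
  mixing hm hn r c N hr hc T₀ hT ε h0 t ht

end Vale.Agent.Results.P328.HeatBathMixes
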