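import Vale.Agent.CT.Chain26
import Vale.Agent.CT.ChainEq26

/-! # P328: polynomial mixing of the switch chain on all contingency tables -/

namespace Vale.Agent.Results.P328.SwitchChainMixes

open CTables

/-- For every number of rows `m` and of columns `n` and all margins `r`, `c` with total `N`, the
lazy switch chain on the contingency tables with margins `r`, `c`, started from any table, is
within `ε` of the uniform law in total variation after a number of steps which is an explicit
polynomial in `m`, `n`, `N` and `log (1/ε)`. -/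
theorem result (m n : ℕ) (hm : 1 ≤ m) (hn : 1 ≤ n) (r : Fin m → ℕ) (c : Fin n → ℕ) (N : ℕ)
    (hr : ∑ i, r i = N) (hc : ∑ j, c j = N) (T₀ : Fin m → Fin n → ℕ) (hT : IsTable r c T₀)
    (ε : ℝ) (h0 : 0 < ε) (h1 : ε < 1) (t : ℕ)
    (ht : 4 * 10 ^ 20 * (m : ℝ) ^ 2 * (n : ℝ) ^ 2 * ((m : ℝ) + 1) * ((n : ℝ) + 1) ^ 12 *
      ((N : ℝ) + 1) ^ 34 * ((m : ℝ) * n * Real.log ((N : ℝ) + 1) + Real.log (1 / ε)) ≤ t) :
    tvUnif r c (law r c T₀ t) ≤ ε :=
  mixing hm hn r c N hr hc T₀ hT ε h0 h1 t ht

end Vale.Agent.Results.P328.SwitchChainMixes
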